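import Mathlib

namespace Vale.Agent.Results.P061.ThinConstantFour

open Finset Classical

/-- Number of edges of `G` with exactly one endpoint in `S`
(each such edge is counted once, as the ordered pair starting inside `S`). -/
noncomputable def cutSize {V : Type} [Fintype V] (G : SimpleGraph V) (S : Finset V) : ℕ :=
  ((S ×ˢ Sᶜ).filter (fun p => G.Adj p.1 p.2)).card

/-- `G` is `k`-edge-connected: every cut given by a nonempty proper vertex set has at least `k` edges. -/
def EdgeConnected {V : Type} [Fintype V] (k : ℕ) (G : SimpleGraph V) : Prop :=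
  ∀ S : Finset V, S.Nonempty → S ≠ univ → k ≤ cutSize G S

/-- `T` is an `α`-thin spanning tree of `G`. -/
def IsThinTree {V : Type} [Fintype V] (α : ℝ) (T G : SimpleGraph V) : Prop :=
  T ≤ G ∧ T.IsTree ∧
    ∀ S : Finset V, S.Nonempty → S ≠ univ → (cutSize T S : ℝ) ≤ α * (cutSize G S : ℝ)

lemma cutSize_top {V : Type} [Fintype V] (S : Finset V) :
    cutSize (⊤ : SimpleGraph V) S = S.card * (Fintype.card V - S.card) := by
  unfold cutSize
  have h : ∀ p ∈ S ×ˢ Sᶜ, (⊤ : SimpleGraph V).Adj p.1 p.2 := by
    intro p hp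
    rw [Finset.mem_product, Finset.mem_compl] at hp
    rw [SimpleGraph.top_adj]
    rintro h
    exact hp.2 (h ▸ hp.1)
  rw [Finset.card_filter]
  refine (Finset.sum_congr rfl (fun p hp => ?_)).trans
    (?_ : ∑ _p ∈ S ×ˢ Sᶜ, 1 = S.card * (Fintype.card V - S.card))
  · rw [if_pos (h p hp)]
  · simp [Finset.card_product, Finset.card_compl]

lemma cutSize_eq_sum {V : Type} [Fintype V] (G : SimpleGraph V) (S : Finset V) :
    cutSize G S = ∑ u ∈ S, (Sᶜ.filter (fun v => G.Adj u v)).card := by
  unfold cutSize
  rw [Finset.card_filter, Finset.sum_product]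
  refine Finset.sum_congr rfl (fun u _ => ?_)
  rw [Finset.card_filter]

lemma cutSize_compl {V : Type} [Fintype V] (G : SimpleGraph V) (S : Finset V) :
    cutSize G Sᶜ = cutSize G S := by
  unfold cutSize
  rw [compl_compl]
  refine Finset.card_bij (fun p _ => (p.2, p.1)) ?_ ?_ ?_
  · intro p hp
    simp only [Finset.mem_filter, Finset.mem_product] at hp ⊢
    exact ⟨⟨hp.1.2, hp.1.1⟩, hp.2.symm⟩
  · intro p _ q _ h
    simp only [Prod.mk.injEq] at h
    exact Prod.ext h.2 h.1
  · intro p hp
    simp only [Finset.mem_filter, Finset.mem_product] at hp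
    refine ⟨(p.2, p.1), ?_, rfl⟩
    simp only [Finset.mem_filter, Finset.mem_product]
    exact ⟨⟨hp.1.2, hp.1.1⟩, hp.2.symm⟩

/-- the colour class of a proper 2-colouring is crossed by every edge -/
lemma cutSize_colorClass {V : Type} [Fintype V] (T : SimpleGraph V) (c : T.Coloring (Fin 2)) :
    cutSize T (univ.filter (fun v => c v = 0)) = T.edgeFinset.card := by
  set S : Finset V := univ.filter (fun v => c v = 0) with hS
  have h1 : cutSize T S = ∑ u ∈ S, T.degree u := by
    rw [cutSize_eq_sum]
    refine Finset.sum_congr rfl (fun u hu => ?_)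
    rw [← SimpleGraph.card_neighborFinset_eq_degree]
    congr 1
    ext v
    simp only [Finset.mem_filter, Finset.mem_compl, SimpleGraph.mem_neighborFinset]
    constructor
    · exact fun h => h.2
    · intro h
      refine ⟨?_, h⟩
      intro hv
      have hu' : c u = 0 := by simpa [hS] using hu
      have hv' : c v = 0 := by simpa [hS] using hv
      exact c.valid h (hu'.trans hv'.symm)
  have h2 : cutSize T Sᶜ = ∑ u ∈ Sᶜ, T.degree u := by
    rw [cutSize_eq_sum]
    refine Finset.sum_congr rfl (fun u hu => ?_)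
    rw [← SimpleGraph.card_neighborFinset_eq_degree]
    congr 1
    ext v
    simp only [Finset.mem_filter, Finset.mem_compl, SimpleGraph.mem_neighborFinset, not_not]
    constructor
    · exact fun h => h.2
    · intro h
      refine ⟨?_, h⟩
      by_contra hv
      have hu' : c u ≠ 0 := by simpa [hS] using hu
      have hv' : c v ≠ 0 := by simpa [hS] using hv
      have : c u = c v := by
        have a1 : c u = 1 := by omega
        have a2 : c v = 1 := by omega
        rw [a1, a2]
      exact c.valid h this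
  have h3 : ∑ u ∈ S, T.degree u + ∑ u ∈ Sᶜ, T.degree u = 2 * T.edgeFinset.card := by
    rw [Finset.sum_add_sum_compl]
    exact T.sum_degrees_eq_twice_card_edges
  rw [cutSize_compl] at h2
  omega

lemma key {n : ℕ} (hn : 2 ≤ n) (α : ℝ) (T : SimpleGraph (Fin n))
    (h : IsThinTree α T ⊤) : 4 * ((n : ℝ) - 1) / (n : ℝ) ^ 2 ≤ α := by
  obtain ⟨-, hT, hthin⟩ := h
  obtain ⟨c⟩ := hT.colorable_two
  set S : Finset (Fin n) := univ.filter (fun v => c v = 0) with hS
  have hcard : T.edgeFinset.card + 1 = n := by
    have := hT.card_edgeFinset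
    simpa using this
  have hcut : cutSize T S = n - 1 := by
    rw [hS, cutSize_colorClass]; omega
  have hpos : 0 < cutSize T S := by omega
  have hne : S.Nonempty := by
    rw [Finset.nonempty_iff_ne_empty]
    intro h0
    rw [h0] at hpos
    simp [cutSize] at hpos
  have hne' : S ≠ univ := by
    intro h0
    rw [h0] at hpos
    simp [cutSize] at hpos
  have h1 := hthin S hne hne'
  rw [cutSize_top, hcut] at h1
  have hle : S.card ≤ n := by
    have := Finset.card_le_univ S
    simpa using this
  simp only [Fintype.card_fin] at h1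
  push_cast [hle, Nat.sub_add_cancel, (by omega : 1 ≤ n)] at h1
  have hn' : (2 : ℝ) ≤ n := by exact_mod_cast hn
  set s : ℝ := (S.card : ℝ) with hs
  have hprod : s * ((n : ℝ) - s) ≤ (n : ℝ) ^ 2 / 4 := by nlinarith [sq_nonneg (2 * s - n)]
  have hαpos : 0 < α := by
    by_contra hα
    rw [not_lt] at hα
    have hs0 : 0 ≤ s := by positivity
    have hs1 : 0 ≤ (n : ℝ) - s := by
      have : s ≤ n := by rw [hs]; exact_mod_cast hle
      linarith
    have : α * (s * ((n : ℝ) - s)) ≤ 0 := mul_nonpos_of_nonpos_of_nonneg hα (mul_nonneg hs0 hs1)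
    linarith
  rw [div_le_iff₀ (by positivity)]
  nlinarith

theorem result :
    (∀ k : ℕ, 1 ≤ k →
      EdgeConnected k (⊤ : SimpleGraph (Fin (k + 1))) ∧
      ∀ (α : ℝ) (T : SimpleGraph (Fin (k + 1))), IsThinTree α T ⊤ →
        4 * (k : ℝ) / ((k : ℝ) + 1) ^ 2 ≤ α) ∧
    (∀ C : ℝ,
      (∀ k n : ℕ, 1 ≤ k → 2 ≤ n → ∀ G : SimpleGraph (Fin n), EdgeConnected k G →
        ∃ T : SimpleGraph (Fin n), IsThinTree (C / k) T G) → 4 ≤ C) := by
  have part1 : ∀ k : ℕ, 1 ≤ k →
      EdgeConnected k (⊤ : SimpleGraph (Fin (k + 1))) ∧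
      ∀ (α : ℝ) (T : SimpleGraph (Fin (k + 1))), IsThinTree α T ⊤ →
        4 * (k : ℝ) / ((k : ℝ) + 1) ^ 2 ≤ α := by
    intro k hk
    constructor
    · intro S hne hne'
      rw [cutSize_top]
      simp only [Fintype.card_fin]
      have h1 : 1 ≤ S.card := hne.card_pos
      have h2 : S.card < k + 1 := by
        have h3 : S.card ≤ k + 1 := by simpa using Finset.card_le_univ S
        rcases Nat.lt_or_ge S.card (k + 1) with h | h
        · exact h
        · exfalso
          apply hne'
          apply Finset.eq_univ_of_card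
          simp; omega
      obtain ⟨a, ha⟩ : ∃ a, S.card = a + 1 := ⟨S.card - 1, by omega⟩
      obtain ⟨b, hb⟩ : ∃ b, k + 1 - S.card = b + 1 := ⟨k + 1 - S.card - 1, by omega⟩
      rw [hb, ha]
      have : k = a + b + 1 := by omega
      subst this
      nlinarith
    · intro α T h
      have := key (n := k + 1) (by omega) α T h
      push_cast at this
      simpa using this
  refine ⟨part1, ?_⟩
  intro C hC
  by_contra hlt
  rw [not_le] at hlt
  obtain ⟨k, hk⟩ := exists_nat_gt (12 / (4 - C) + 1)
  have hε : 0 < 4 - C := by linarith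
  have hk1 : (1 : ℝ) < k := by
    have : 0 < 12 / (4 - C) := by positivity
    linarith
  have hk1' : 1 ≤ k := by
    have : (1 : ℕ) < k := by exact_mod_cast hk1
    omega
  obtain ⟨hconn, hthin⟩ := part1 k hk1'
  obtain ⟨T, hT⟩ := hC k (k + 1) hk1' (by omega) ⊤ hconn
  have h1 := hthin _ T hT
  have hkpos : (0 : ℝ) < k := by linarith
  rw [div_le_div_iff₀ (by positivity) hkpos] at h1
  have h2 : 12 / (4 - C) < k := by linarith
  rw [div_lt_iff₀ hε] at h2
  nlinarith

end Vale.Agent.Results.P061.ThinConstantFour
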